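import Vale.Agent.P143.Final

namespace Vale.Agent.Results.P143.FUSF

open MeasureTheory unitInterval Vale.Agent.P143

universe u

theorem result :
    (∀ (Γ : Type u) [Group Γ] (S : Set Γ), S.Finite → Subgroup.closure S = ⊤ →
      ∃ Φ : (Γ → I) → (SimpleGraph.mulCayley S).edgeSet → Bool, Measurable Φ ∧
        (∀ (γ : Γ) (U : Γ → I) (e e' : (SimpleGraph.mulCayley S).edgeSet),
          e'.1 = e.1.map (fun x => γ * x) → Φ (fun v => U (γ⁻¹ * v)) e' = Φ U e) ∧
        IsFUSF (SimpleGraph.mulCayley S)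
          ((Measure.infinitePi fun _ : Γ => (volume : Measure I)).map Φ)) ∧
    (∃ Φ : SimpleGraph ℕ → (ℕ → I) → Sym2 ℕ → Bool,
      (∀ e, Measurable fun p : SimpleGraph ℕ × (ℕ → I) => Φ p.1 p.2 e) ∧
      (∀ (G G' : SimpleGraph ℕ) (φ : G ≃g G') (U U' : ℕ → I), (∀ v, U' (φ v) = U v) →
        ∀ e : Sym2 ℕ, Φ G' U' (e.map φ) = Φ G U e) ∧
      ∀ G : SimpleGraph ℕ, G.Connected → (∀ v, (G.neighborSet v).Finite) →
        IsFUSF G ((Measure.infinitePi fun _ : ℕ => (volume : Measure I)).map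
          fun U (e : G.edgeSet) => Φ G U e)) := by
  refine ⟨fun Γ _ S hS hc => ?_, Phi, measurable_Phi, fun G G' φ U U' hU e => Phi_map φ U U' hU e,
    fun G hc hG => isFUSF_Phi hc hG⟩
  have h1 := cayley_connected hc
  have h2 := cayley_finite hS
  have := countable_of_connected h1 h2
  refine ⟨fun U e => Phi (SimpleGraph.mulCayley S) U e, ?_, fun γ U e e' he => ?_,
    isFUSF_Phi h1 h2⟩
  · exact measurable_pi_lambda _ fun e => (measurable_Phi e.1).comp
      (f := fun U : Γ → I => (SimpleGraph.mulCayley S, U)) (by fun_prop)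
  · simp only [he]
    exact Phi_map (cayleyIso S γ) U (fun v => U (γ⁻¹ * v)) (fun v => by simp [cayleyIso]) e.1

end Vale.Agent.Results.P143.FUSF
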